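import Mathlib

namespace Vale.Agent.P037

def sz (m i : ℕ) : ℕ := 2 ^ (m - i)
def nd (m i v : ℕ) : ℕ := v / sz m i
def lo (m i v : ℕ) : ℕ := nd m i v * sz m i
def hi (m i v : ℕ) : ℕ := (nd m i v + 1) * sz m i
def phi (m i v : ℕ) : ℕ := hi m i v + if i < m then 1 else 0
def InPair (m j b i v : ℕ) : Prop := (i = j ∨ i + 1 = j) ∧ nd m j v % 2 = b
def InSingle (m j b i v : ℕ) : Prop := i + j = 2 * m ∧ nd m j v % 2 = b

lemma sz_pos (m i : ℕ) : 0 < sz m i := by unfold sz; positivity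

lemma sz_ge {m i : ℕ} (h : m ≤ i) : sz m i = 1 := by
  unfold sz; rw [Nat.sub_eq_zero_of_le h]; rfl

lemma sz_succ {m i : ℕ} (h : i < m) : sz m i = 2 * sz m (i + 1) := by
  unfold sz
  have : m - i = (m - (i + 1)) + 1 := by omega
  rw [this, pow_succ]; ring

lemma sz_succ_le (m i : ℕ) : sz m (i + 1) ≤ sz m i := by
  by_cases h : i < m
  · rw [sz_succ h]; omega
  · rw [sz_ge (by omega), sz_ge (by omega)]

lemma nd_ge {m i : ℕ} (h : m ≤ i) (v : ℕ) : nd m i v = v := by
  unfold nd; rw [sz_ge h]; simp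

lemma lo_ge {m i : ℕ} (h : m ≤ i) (v : ℕ) : lo m i v = v := by
  unfold lo; rw [nd_ge h, sz_ge h]; simp

lemma hi_ge {m i : ℕ} (h : m ≤ i) (v : ℕ) : hi m i v = v + 1 := by
  unfold hi; rw [nd_ge h, sz_ge h]; simp

lemma nd_succ {m i : ℕ} (h : i < m) (v : ℕ) : nd m i v = nd m (i + 1) v / 2 := by
  unfold nd; rw [sz_succ h, Nat.div_div_eq_div_mul, mul_comm]

lemma hi_eq (m i v : ℕ) : hi m i v = lo m i v + sz m i := by
  unfold hi lo; ring

lemma lo_le (m i v : ℕ) : lo m i v ≤ v := by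
  unfold lo nd; exact Nat.div_mul_le_self _ _

lemma lt_hi (m i v : ℕ) : v < hi m i v := by
  unfold hi nd
  have := Nat.lt_div_mul_add (a := v) (sz_pos m i)
  nlinarith

lemma lo_succ_ge (m i v : ℕ) : lo m i v ≤ lo m (i + 1) v := by
  by_cases h : i < m
  · unfold lo
    rw [nd_succ h, sz_succ h]
    have : nd m (i + 1) v / 2 * 2 ≤ nd m (i + 1) v := Nat.div_mul_le_self _ _
    nlinarith [sz_pos m (i + 1)]
  · rw [lo_ge (by omega), lo_ge (by omega)]

lemma hor_mono {m j b i v i1 v1 i2 v2 : ℕ} (hs : InSingle m j b i v)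
    (h1 : InPair m j b i1 v1) (h2 : InPair m j b i2 v2)
    (hk : lo m i1 v1 < lo m i2 v2 ∨ (lo m i1 v1 = lo m i2 v2 ∧ i1 ≤ i2))
    (hx : phi m i v ≤ hi m i1 v1) : phi m i v ≤ hi m i2 v2 := by
  obtain ⟨hs1, hs2⟩ := hs
  obtain ⟨h11, h12⟩ := h1
  obtain ⟨h21, h22⟩ := h2
  by_cases he : i1 = i2
  · subst he
    rw [hi_eq] at hx ⊢
    omega
  by_cases hlt : i2 < i1
  · have e : i1 = i2 + 1 := by omega
    subst e
    have := sz_succ_le m i2
    rw [hi_eq] at hx ⊢
    omega
  have e : i2 = i1 + 1 := by omega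
  subst e
  have ej : j = i1 + 1 := by omega
  subst ej
  by_cases hm : i1 < m
  · have him : m ≤ i := by omega
    have hphi : phi m i v = v + 1 := by
      unfold phi; rw [hi_ge him, if_neg (by omega)]
    rw [hphi] at hx ⊢
    have hS := sz_pos m (i1 + 1)
    have hk' : lo m i1 v1 ≤ lo m (i1 + 1) v2 := by omega
    have a1 := lo_le m (i1 + 1) v
    have a2 := lt_hi m (i1 + 1) v
    unfold lo at hk' a1
    unfold hi at hx a2 ⊢
    rw [sz_succ hm] at hk' hx
    set S := sz m (i1 + 1)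
    set a := nd m (i1 + 1) v
    set a2' := nd m (i1 + 1) v2
    set c := nd m i1 v1
    have b1 : 2 * c ≤ a2' := by
      by_contra hh
      have : a2' + 1 ≤ 2 * c := by omega
      nlinarith
    have b2 : a < 2 * (c + 1) := by
      by_contra hh
      have : 2 * (c + 1) ≤ a := by omega
      nlinarith
    have b3 : a ≤ a2' := by omega
    nlinarith
  · rw [hi_ge (by omega)] at hx ⊢
    rw [lo_ge (by omega), lo_ge (by omega)] at hk
    omega

lemma ver_mono {m j b i v i1 v1 i2 v2 : ℕ} (hs : InSingle m j b i v)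
    (h1 : InPair m j b i1 v1) (h2 : InPair m j b i2 v2)
    (hk : lo m i1 v1 < lo m i2 v2 ∨ (lo m i1 v1 = lo m i2 v2 ∧ i1 ≤ i2))
    (hx : phi m i2 v2 ≤ hi m i v) (hn : ¬ phi m i1 v1 ≤ hi m i v) :
    i2 = m ∧ i = m ∧ v2 = v := by
  obtain ⟨hs1, hs2⟩ := hs
  obtain ⟨h11, h12⟩ := h1
  obtain ⟨h21, h22⟩ := h2
  by_contra hcon
  apply hn
  by_cases he : i1 = i2
  · subst he
    unfold phi at hx ⊢
    rw [hi_eq m i1] at hx ⊢
    omega
  by_cases hlt : i2 < i1
  · have e : i1 = i2 + 1 := by omega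
    subst e
    have := sz_succ_le m i2
    unfold phi at hx ⊢
    rw [hi_eq m i2] at hx
    rw [hi_eq m (i2 + 1)]
    split_ifs at hx ⊢ <;> omega
  have e : i2 = i1 + 1 := by omega
  subst e
  have ej : j = i1 + 1 := by omega
  subst ej
  by_cases hm : i1 < m
  · have him : m ≤ i := by omega
    rw [hi_ge him] at hx ⊢
    have hS := sz_pos m (i1 + 1)
    have hk' : lo m i1 v1 ≤ lo m (i1 + 1) v2 := by omega
    have a1 := lo_le m (i1 + 1) v
    have a2 := lt_hi m (i1 + 1) v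
    have b0 : nd m (i1 + 1) v2 < nd m (i1 + 1) v := by
      by_cases hm2 : i1 + 1 < m
      · unfold phi at hx
        rw [if_pos hm2] at hx
        unfold hi at hx a2
        by_contra hh
        have : nd m (i1 + 1) v ≤ nd m (i1 + 1) v2 := by omega
        nlinarith
      · unfold phi at hx
        rw [if_neg hm2, hi_ge (by omega)] at hx
        rw [nd_ge (by omega), nd_ge (by omega)]
        omega
    unfold phi
    rw [if_pos hm]
    unfold lo at hk' a1
    unfold hi
    rw [sz_succ hm] at hk' ⊢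
    set S := sz m (i1 + 1)
    set a := nd m (i1 + 1) v
    set a2' := nd m (i1 + 1) v2
    set c := nd m i1 v1
    have b1 : 2 * c ≤ a2' := by
      by_contra hh
      have : a2' + 1 ≤ 2 * c := by omega
      nlinarith
    have b3 : 2 * c + 2 ≤ a := by omega
    nlinarith
  · unfold phi at hx ⊢
    rw [if_neg (by omega)] at hx ⊢
    rw [hi_ge (i := i1 + 1) (by omega)] at hx
    rw [hi_ge (i := i1) (by omega)]
    rw [lo_ge (by omega), lo_ge (by omega)] at hk
    omega

end Vale.Agent.P037
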