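import Mathlib

namespace Vale.Agent.P037

/-- The forbidden pattern. -/
def pat : Matrix (Fin 6) (Fin 6) Bool :=
  !![true, false, false, false, true, false;
     true, false, false, false, true, true;
     true, true, false, false, false, false;
     true, false, true, false, false, false;
     true, false, false, true, false, false;
     true, true, true, true, true, true]

lemma pat_rows : ∀ a a' : Fin 6, 1 ≤ a → 1 ≤ a' →
    (∀ t, pat a t = true ↔ pat a' t = true) → a = a' := by
  intro a a'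
  fin_cases a <;> fin_cases a' <;> decide

lemma pat_cols : ∀ t t' : Fin 6, t ≤ 4 → t' ≤ 4 →
    (∀ a, pat a t = true ↔ pat a t' = true) → t = t' := by decide

lemma pat_col0 : ∀ a : Fin 6, pat a 0 = true := by decide
lemma pat_row5 : ∀ t : Fin 6, pat 5 t = true := by decide
lemma pat_01 : ∀ t : Fin 6, t ≤ 4 → pat 1 t = pat 0 t := by decide
lemma pat_45 : ∀ a : Fin 6, 1 ≤ a → pat a 4 = pat a 5 := by decide

def actR (v : Bool) (a : Fin 6) : Prop := (if v then 2 else 1) ≤ a.val
def actC (v : Bool) (t : Fin 6) : Prop := t.val ≤ (if v then 4 else 3)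

section
variable {D G W : Type} (φ ψ : D → ℕ) (ver : G → Bool) (SR SC : G → D → Prop)

def Mx : D ⊕ (G × Fin 6 × W) → D ⊕ (G × Fin 6 × W) → Prop
  | .inl r, .inl c => φ r ≤ ψ c
  | .inl r, .inr l => actC (ver l.1) l.2.1 ∧ SR l.1 r ∧ pat 0 l.2.1 = true
  | .inr l, .inl c => actR (ver l.1) l.2.1 ∧ SC l.1 c ∧ pat l.2.1 5 = true
  | .inr l, .inr l' => l.1 = l'.1 ∧ actR (ver l.1) l.2.1 ∧ actC (ver l.1) l'.2.1 ∧
      pat l.2.1 l'.2.1 = true

lemma Mx_twin_row (l l' : G × Fin 6 × W) (h1 : l.1 = l'.1) (h2 : l.2.1 = l'.2.1)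
    (y : D ⊕ (G × Fin 6 × W)) :
    Mx φ ψ ver SR SC (.inr l) y ↔ Mx φ ψ ver SR SC (.inr l') y := by
  rcases y with c | l''
  · simp only [Mx, h1, h2]
  · simp only [Mx, h1, h2]

lemma Mx_twin_col (l l' : G × Fin 6 × W) (h1 : l.1 = l'.1) (h2 : l.2.1 = l'.2.1)
    (y : D ⊕ (G × Fin 6 × W)) :
    Mx φ ψ ver SR SC y (.inr l) ↔ Mx φ ψ ver SR SC y (.inr l') := by
  rcases y with c | l''
  · simp only [Mx, h1, h2]
  · simp only [Mx, h1, h2]

variable {φ ψ ver SR SC}

lemma core_col0 (R C : Fin 6 → D ⊕ (G × Fin 6 × W))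
    (hR : ∀ a a', a < a' → (R a).isRight → (R a').isRight)
    (hC : ∀ t t', t < t' → (C t').isRight → (C t).isRight)
    (h : ∀ a t, Mx φ ψ ver SR SC (R a) (C t) ↔ pat a t = true)
    (four : ∀ c g1 g2 g3 g4, SC g1 c → SC g2 c → SC g3 c → SC g4 c →
      g1 = g2 ∨ g1 = g3 ∨ g1 = g4 ∨ g2 = g3 ∨ g2 = g4 ∨ g3 = g4) :
    (C 0).isRight := by
  by_contra h0
  have hall : ∀ t, ∃ c, C t = .inl c := by
    intro t
    rcases hc : C t with c | l
    · exact ⟨c, rfl⟩
    · exfalso
      rcases eq_or_ne t 0 with rfl | ht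
      · simp [hc] at h0
      · exact h0 (hC 0 t (Fin.pos_iff_ne_zero.mpr ht) (by simp [hc]))
  choose c hc using hall
  have hR2 : (R 2).isRight := by
    by_contra h2
    rcases hr2 : R 2 with r2 | l
    swap
    · simp [hr2] at h2
    rcases hr0 : R 0 with r0 | l
    swap
    · exact h2 (hR 0 2 (by decide) (by simp [hr0]))
    have e1 := (h 0 4).2 (by decide)
    have e2 : ¬ _ := fun hh => absurd ((h 0 1).1 hh) (by decide)
    have e3 := (h 2 1).2 (by decide)
    have e4 : ¬ _ := fun hh => absurd ((h 2 4).1 hh) (by decide)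
    rw [hr0, hc] at e1 e2
    rw [hr2, hc] at e3 e4
    simp only [Mx] at e1 e2 e3 e4
    omega
  have hlab : ∀ a : Fin 6, 2 ≤ a → ∃ l, R a = .inr l := by
    intro a ha
    rcases eq_or_lt_of_le ha with rfl | ha'
    · exact Sum.isRight_iff.1 hR2
    · exact Sum.isRight_iff.1 (hR 2 a ha' hR2)
  choose l hl using hlab
  have hfact : ∀ a (ha : 2 ≤ a), actR (ver (l a ha).1) (l a ha).2.1 ∧ SC (l a ha).1 (c 0) ∧
      pat (l a ha).2.1 5 = true := by
    intro a ha
    have := (h a 0).2 (pat_col0 a)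
    rw [hl a ha, hc] at this
    exact this
  have key : ∀ a a' (ha : 2 ≤ a) (ha' : 2 ≤ a'), (l a ha).1 = (l a' ha').1 → a = a' := by
    intro a a' ha ha' he
    refine pat_rows a a' (le_trans (by decide) ha) (le_trans (by decide) ha') fun t => ?_
    rw [← h a t, ← h a' t, hl a ha, hl a' ha', hc]
    have f1 := hfact a ha
    have f2 := hfact a' ha'
    simp only [Mx]
    constructor
    · rintro ⟨-, b, -⟩
      exact ⟨f2.1, he ▸ b, f2.2.2⟩
    · rintro ⟨-, b, -⟩
      exact ⟨f1.1, he ▸ b, f1.2.2⟩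
  rcases four (c 0) _ _ _ _ (hfact 2 (by decide)).2.1 (hfact 3 (by decide)).2.1
    (hfact 4 (by decide)).2.1 (hfact 5 (by decide)).2.1 with e | e | e | e | e | e <;>
  exact absurd (key _ _ _ _ e) (by decide)

lemma core_row5 (R C : Fin 6 → D ⊕ (G × Fin 6 × W))
    (hR : ∀ a a', a < a' → (R a).isRight → (R a').isRight)
    (hC : ∀ t t', t < t' → (C t').isRight → (C t).isRight)
    (h : ∀ a t, Mx φ ψ ver SR SC (R a) (C t) ↔ pat a t = true)
    (four : ∀ c g1 g2 g3 g4, SR g1 c → SR g2 c → SR g3 c → SR g4 c →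
      g1 = g2 ∨ g1 = g3 ∨ g1 = g4 ∨ g2 = g3 ∨ g2 = g4 ∨ g3 = g4) :
    (R 5).isRight := by
  by_contra h0
  have hall : ∀ a, ∃ r, R a = .inl r := by
    intro a
    rcases hr : R a with r | l
    · exact ⟨r, rfl⟩
    · exfalso
      rcases eq_or_ne a 5 with rfl | ha
      · simp [hr] at h0
      · exact h0 (hR a 5 (lt_of_le_of_ne (Fin.le_last a) ha) (by simp [hr]))
  choose r hr using hall
  have hC3 : (C 3).isRight := by
    by_contra h3
    rcases hc3 : C 3 with c3 | l
    swap
    · simp [hc3] at h3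
    rcases hc5 : C 5 with c5 | l
    swap
    · exact h3 (hC 3 5 (by decide) (by simp [hc5]))
    have e1 := (h 4 3).2 (by decide)
    have e2 : ¬ _ := fun hh => absurd ((h 4 5).1 hh) (by decide)
    have e3 := (h 1 5).2 (by decide)
    have e4 : ¬ _ := fun hh => absurd ((h 1 3).1 hh) (by decide)
    rw [hc3, hr] at e1 e4
    rw [hc5, hr] at e2 e3
    simp only [Mx] at e1 e2 e3 e4
    omega
  have hlab : ∀ t : Fin 6, t ≤ 3 → ∃ l, C t = .inr l := by
    intro t ht
    rcases eq_or_lt_of_le ht with rfl | ht'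
    · exact Sum.isRight_iff.1 hC3
    · exact Sum.isRight_iff.1 (hC t 3 ht' hC3)
  choose l hl using hlab
  have hfact : ∀ t (ht : t ≤ 3), actC (ver (l t ht).1) (l t ht).2.1 ∧ SR (l t ht).1 (r 5) ∧
      pat 0 (l t ht).2.1 = true := by
    intro t ht
    have := (h 5 t).2 (pat_row5 t)
    rw [hl t ht, hr] at this
    exact this
  have key : ∀ t t' (ht : t ≤ 3) (ht' : t' ≤ 3), (l t ht).1 = (l t' ht').1 → t = t' := by
    intro t t' ht ht' he
    refine pat_cols t t' (le_trans ht (by decide)) (le_trans ht' (by decide)) fun a => ?_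
    rw [← h a t, ← h a t', hl t ht, hl t' ht', hr]
    have f1 := hfact t ht
    have f2 := hfact t' ht'
    simp only [Mx]
    constructor
    · rintro ⟨-, b, -⟩
      exact ⟨f2.1, he ▸ b, f2.2.2⟩
    · rintro ⟨-, b, -⟩
      exact ⟨f1.1, he ▸ b, f1.2.2⟩
  rcases four (r 5) _ _ _ _ (hfact 0 (by decide)).2.1 (hfact 1 (by decide)).2.1
    (hfact 2 (by decide)).2.1 (hfact 3 (by decide)).2.1 with e | e | e | e | e | e <;>
  exact absurd (key _ _ _ _ e) (by decide)

theorem core (R C : Fin 6 → D ⊕ (G × Fin 6 × W))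
    (hR : ∀ a a', a < a' → (R a).isRight → (R a').isRight)
    (hC : ∀ t t', t < t' → (C t').isRight → (C t).isRight)
    (h : ∀ a t, Mx φ ψ ver SR SC (R a) (C t) ↔ pat a t = true)
    (fourR : ∀ c g1 g2 g3 g4, SR g1 c → SR g2 c → SR g3 c → SR g4 c →
      g1 = g2 ∨ g1 = g3 ∨ g1 = g4 ∨ g2 = g3 ∨ g2 = g4 ∨ g3 = g4)
    (fourC : ∀ c g1 g2 g3 g4, SC g1 c → SC g2 c → SC g3 c → SC g4 c →
      g1 = g2 ∨ g1 = g3 ∨ g1 = g4 ∨ g2 = g3 ∨ g2 = g4 ∨ g3 = g4) :
    ∃ g, (ver g = true ∧ ∃ r0 r1 c, R 0 = .inl r0 ∧ R 1 = .inl r1 ∧ C 5 = .inl c ∧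
        SR g r0 ∧ SR g r1 ∧ SC g c) ∨
      (ver g = false ∧ ∃ r c4 c5, R 0 = .inl r ∧ C 4 = .inl c4 ∧ C 5 = .inl c5 ∧
        SR g r ∧ SC g c4 ∧ SC g c5) := by
  obtain ⟨l0, hl0⟩ := Sum.isRight_iff.1 (core_col0 R C hR hC h fourC)
  obtain ⟨l5, hl5⟩ := Sum.isRight_iff.1 (core_row5 R C hR hC h fourR)
  have e05 := (h 5 0).2 (by decide)
  rw [hl0, hl5] at e05
  have hg : l5.1 = l0.1 := e05.1
  have rowD : ∀ a r, R a = .inl r → SR l0.1 r := by
    intro a r hr
    have := (h a 0).2 (pat_col0 a)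
    rw [hr, hl0] at this
    exact this.2.1
  have rowL : ∀ a l, R a = .inr l → l.1 = l0.1 ∧ actR (ver l0.1) l.2.1 := by
    intro a l hr
    have := (h a 0).2 (pat_col0 a)
    rw [hr, hl0] at this
    exact ⟨this.1, this.1 ▸ this.2.1⟩
  have colD : ∀ t c, C t = .inl c → SC l0.1 c := by
    intro t c hc
    have := (h 5 t).2 (pat_row5 t)
    rw [hc, hl5] at this
    exact hg ▸ this.2.1
  have colL : ∀ t l, C t = .inr l → l.1 = l0.1 ∧ actC (ver l0.1) l.2.1 := by
    intro t l hc
    have := (h 5 t).2 (pat_row5 t)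
    rw [hc, hl5] at this
    exact ⟨this.1.symm.trans hg, hg ▸ this.2.2.1⟩
  refine ⟨l0.1, ?_⟩
  cases hv : ver l0.1
  · right
    refine ⟨rfl, ?_⟩
    have hC4 : ¬ (C 4).isRight := by
      intro h4
      have hlab : ∀ t : Fin 6, t ≤ 4 → ∃ l, C t = .inr l := by
        intro t ht
        rcases eq_or_lt_of_le ht with rfl | ht'
        · exact Sum.isRight_iff.1 h4
        · exact Sum.isRight_iff.1 (hC t 4 ht' h4)
      choose l hl using hlab
      have hb : ∀ t ht, (l t ht).2.1.val ≤ 3 := by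
        intro t ht
        have := (colL t _ (hl t ht)).2
        simpa [actC, hv] using this
      have key : ∀ t t' (ht : t ≤ 4) (ht' : t' ≤ 4), t ≠ t' →
          (l t ht).2.1.val ≠ (l t' ht').2.1.val := by
        intro t t' ht ht' hne he
        apply hne
        refine pat_cols t t' ht ht' fun a => ?_
        rw [← h a t, ← h a t', hl t ht, hl t' ht']
        exact Mx_twin_col φ ψ ver SR SC _ _
          ((colL t _ (hl t ht)).1.trans (colL t' _ (hl t' ht')).1.symm) (Fin.ext he) _
      have b0 := hb 0 (by decide)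
      have b1 := hb 1 (by decide)
      have b2 := hb 2 (by decide)
      have b3 := hb 3 (by decide)
      have b4 := hb 4 (by decide)
      have k01 := key 0 1 (by decide) (by decide) (by decide)
      have k02 := key 0 2 (by decide) (by decide) (by decide)
      have k03 := key 0 3 (by decide) (by decide) (by decide)
      have k04 := key 0 4 (by decide) (by decide) (by decide)
      have k12 := key 1 2 (by decide) (by decide) (by decide)
      have k13 := key 1 3 (by decide) (by decide) (by decide)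
      have k14 := key 1 4 (by decide) (by decide) (by decide)
      have k23 := key 2 3 (by decide) (by decide) (by decide)
      have k24 := key 2 4 (by decide) (by decide) (by decide)
      have k34 := key 3 4 (by decide) (by decide) (by decide)
      omega
    rcases hc4 : C 4 with c4 | l
    swap
    · simp [hc4] at hC4
    rcases hc5 : C 5 with c5 | l
    swap
    · exact absurd (hC 4 5 (by decide) (by simp [hc5])) hC4
    rcases hr0 : R 0 with r | l
    · exact ⟨r, c4, c5, rfl, rfl, rfl, rowD 0 r hr0, colD 4 c4 hc4, colD 5 c5 hc5⟩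
    · exfalso
      have e1 := (h 0 4).2 (by decide)
      have e2 : ¬ _ := fun hh => absurd ((h 0 5).1 hh) (by decide)
      rw [hr0, hc4] at e1
      rw [hr0, hc5] at e2
      exact e2 ⟨e1.1, (rowL 0 l hr0).1 ▸ colD 5 c5 hc5, e1.2.2⟩
  · left
    refine ⟨rfl, ?_⟩
    have hR1 : ¬ (R 1).isRight := by
      intro h1
      have hlab : ∀ a : Fin 6, 1 ≤ a → ∃ l, R a = .inr l := by
        intro a ha
        rcases eq_or_lt_of_le ha with rfl | ha'
        · exact Sum.isRight_iff.1 h1
        · exact Sum.isRight_iff.1 (hR 1 a ha' h1)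
      choose l hl using hlab
      have hb : ∀ a ha, 2 ≤ (l a ha).2.1.val ∧ (l a ha).2.1.val < 6 := by
        intro a ha
        have := (rowL a _ (hl a ha)).2
        exact ⟨by simpa [actR, hv] using this, (l a ha).2.1.isLt⟩
      have key : ∀ a a' (ha : 1 ≤ a) (ha' : 1 ≤ a'), a ≠ a' →
          (l a ha).2.1.val ≠ (l a' ha').2.1.val := by
        intro a a' ha ha' hne he
        apply hne
        refine pat_rows a a' ha ha' fun t => ?_
        rw [← h a t, ← h a' t, hl a ha, hl a' ha']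
        exact Mx_twin_row φ ψ ver SR SC _ _
          ((rowL a _ (hl a ha)).1.trans (rowL a' _ (hl a' ha')).1.symm) (Fin.ext he) _
      have b0 := hb 5 (by decide)
      have b1 := hb 1 (by decide)
      have b2 := hb 2 (by decide)
      have b3 := hb 3 (by decide)
      have b4 := hb 4 (by decide)
      have k01 := key 5 1 (by decide) (by decide) (by decide)
      have k02 := key 5 2 (by decide) (by decide) (by decide)
      have k03 := key 5 3 (by decide) (by decide) (by decide)
      have k04 := key 5 4 (by decide) (by decide) (by decide)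
      have k12 := key 1 2 (by decide) (by decide) (by decide)
      have k13 := key 1 3 (by decide) (by decide) (by decide)
      have k14 := key 1 4 (by decide) (by decide) (by decide)
      have k23 := key 2 3 (by decide) (by decide) (by decide)
      have k24 := key 2 4 (by decide) (by decide) (by decide)
      have k34 := key 3 4 (by decide) (by decide) (by decide)
      omega
    rcases hr1 : R 1 with r1 | l
    swap
    · simp [hr1] at hR1
    rcases hr0 : R 0 with r0 | l
    swap
    · exact absurd (hR 0 1 (by decide) (by simp [hr0])) hR1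
    rcases hc5 : C 5 with c | l
    · exact ⟨r0, r1, c, rfl, rfl, rfl, rowD 0 r0 hr0, rowD 1 r1 hr1, colD 5 c hc5⟩
    · exfalso
      have e1 := (h 1 5).2 (by decide)
      have e2 : ¬ _ := fun hh => absurd ((h 0 5).1 hh) (by decide)
      rw [hr1, hc5] at e1
      rw [hr0, hc5] at e2
      exact e2 ⟨e1.1, (colL 5 l hc5).1 ▸ rowD 0 r0 hr0, e1.2.2⟩

end

end Vale.Agent.P037
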