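import Mathlib
import Vale.Agent.P037.Arith
import Vale.Agent.P037.Core

namespace Vale.Agent.P037

section steps
variable {D G W : Type} {φ ψ : D → ℕ} {ver : G → Bool} {SR SC : G → D → Prop}

lemma hstep (Bm : D ⊕ (G × Fin 6 × W) → D ⊕ (G × Fin 6 × W) → Prop) (g : G)
    (hv : ver g = false) (r c4 c5 : D) (y z : W) (hr : SR g r) (h4 : SC g c4) (h5 : SC g c5)
    (ag1 : ∀ t, Bm (.inl r) (.inr (g, t, z)) ↔ Mx φ ψ ver SR SC (.inl r) (.inr (g, t, z)))
    (ag2 : ∀ a t, Bm (.inr (g, a, y)) (.inr (g, t, z)) ↔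
      Mx φ ψ ver SR SC (.inr (g, a, y)) (.inr (g, t, z)))
    (ag3 : ∀ a, Bm (.inr (g, a, y)) (.inl c4) ↔ Mx φ ψ ver SR SC (.inr (g, a, y)) (.inl c4))
    (ag4 : ∀ a, Bm (.inr (g, a, y)) (.inl c5) ↔ Mx φ ψ ver SR SC (.inr (g, a, y)) (.inl c5))
    (b1 : Bm (.inl r) (.inl c4)) (b2 : ¬ Bm (.inl r) (.inl c5)) (a t : Fin 6) :
    Bm (![.inl r, .inr (g, 1, y), .inr (g, 2, y), .inr (g, 3, y), .inr (g, 4, y),
        .inr (g, 5, y)] a)
      (![.inr (g, 0, z), .inr (g, 1, z), .inr (g, 2, z), .inr (g, 3, z), .inl c4, .inl c5] t) ↔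
      pat a t = true := by
  fin_cases a <;> fin_cases t <;>
    simp [ag1, ag2, ag3, ag4, Mx, actR, actC, hv, hr, h4, h5, b1, b2, pat]

lemma vstep (Bm : D ⊕ (G × Fin 6 × W) → D ⊕ (G × Fin 6 × W) → Prop) (g : G)
    (hv : ver g = true) (r0 r1 c : D) (y z : W) (h0 : SR g r0) (h1 : SR g r1) (hc : SC g c)
    (ag0 : ∀ t, Bm (.inl r0) (.inr (g, t, z)) ↔ Mx φ ψ ver SR SC (.inl r0) (.inr (g, t, z)))
    (ag1 : ∀ t, Bm (.inl r1) (.inr (g, t, z)) ↔ Mx φ ψ ver SR SC (.inl r1) (.inr (g, t, z)))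
    (ag2 : ∀ a t, Bm (.inr (g, a, y)) (.inr (g, t, z)) ↔
      Mx φ ψ ver SR SC (.inr (g, a, y)) (.inr (g, t, z)))
    (ag3 : ∀ a, Bm (.inr (g, a, y)) (.inl c) ↔ Mx φ ψ ver SR SC (.inr (g, a, y)) (.inl c))
    (b1 : Bm (.inl r1) (.inl c)) (b2 : ¬ Bm (.inl r0) (.inl c)) (a t : Fin 6) :
    Bm (![.inl r0, .inl r1, .inr (g, 2, y), .inr (g, 3, y), .inr (g, 4, y),
        .inr (g, 5, y)] a)
      (![.inr (g, 0, z), .inr (g, 1, z), .inr (g, 2, z), .inr (g, 3, z), .inr (g, 4, z),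
        .inl c] t) ↔ pat a t = true := by
  fin_cases a <;> fin_cases t <;>
    simp [ag0, ag1, ag2, ag3, Mx, actR, actC, hv, h0, h1, hc, b1, b2, pat]

end steps

abbrev Wt (M t : ℕ) := Fin (2 ^ M) × Fin t
abbrev Dt (M t : ℕ) := Fin (2 * (M + 1)) × Wt M t
abbrev Gt (M : ℕ) := Bool × Fin (2 * (M + 1)) × Fin 2
abbrev It (M t : ℕ) := Dt M t ⊕ (Gt M × Fin 6 × Wt M t)

section concrete
variable {M t : ℕ}

def cφ (d : Dt M t) : ℕ := phi (M + 1) d.1 d.2.1
def cψ (d : Dt M t) : ℕ := hi (M + 1) d.1 d.2.1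
def cP (g : Gt M) (d : Dt M t) : Prop := InPair (M + 1) g.2.1 g.2.2 d.1 d.2.1
def cS (g : Gt M) (d : Dt M t) : Prop := InSingle (M + 1) g.2.1 g.2.2 d.1 d.2.1
def cSR (g : Gt M) (d : Dt M t) : Prop := if g.1 then cP g d else cS g d
def cSC (g : Gt M) (d : Dt M t) : Prop := if g.1 then cS g d else cP g d
def cM : It M t → It M t → Prop := Mx cφ cψ Prod.fst cSR cSC

def kr : It M t → ℕ ×ₗ ℕ
  | .inl d => toLex (lo (M + 1) d.1 d.2.1, d.1)
  | .inr l => toLex (2 ^ M, l.2.1)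

def kc : It M t → ℕ ×ₗ ℕ
  | .inl d => toLex (lo (M + 1) d.1 d.2.1 + 1, d.1)
  | .inr l => toLex (0, l.2.1)

def wOf : It M t → Wt M t
  | .inl d => d.2
  | .inr l => l.2.2

lemma card_It : Fintype.card (It M t) = 50 * (M + 1) * (2 ^ M * t) := by
  simp only [It, Dt, Gt, Wt, Fintype.card_sum, Fintype.card_prod, Fintype.card_fin,
    Fintype.card_bool]
  ring

lemma cP_uniq {g g' : Gt M} {d : Dt M t} (h : cP g d) (h' : cP g' d) (e1 : g.1 = g'.1)
    (e2 : g.2.1.val % 2 = g'.2.1.val % 2) : g = g' := by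
  obtain ⟨v, j, b⟩ := g
  obtain ⟨v', j', b'⟩ := g'
  simp only [cP, InPair] at h h' e1 e2
  have e : j = j' := Fin.ext (by omega)
  subst e
  have e : b = b' := Fin.ext (by omega)
  subst e
  rw [e1]

lemma cS_uniq {g g' : Gt M} {d : Dt M t} (h : cS g d) (h' : cS g' d) (e1 : g.1 = g'.1) :
    g = g' := by
  obtain ⟨v, j, b⟩ := g
  obtain ⟨v', j', b'⟩ := g'
  simp only [cS, InSingle] at h h' e1
  have e : j = j' := Fin.ext (by omega)
  subst e
  have e : b = b' := Fin.ext (by omega)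
  subst e
  rw [e1]

lemma four_of_color {G : Type} (P : G → Prop) (col : G → ℕ) (hc : ∀ g, col g < 3)
    (h : ∀ g g', P g → P g' → col g = col g' → g = g') (g1 g2 g3 g4 : G)
    (h1 : P g1) (h2 : P g2) (h3 : P g3) (h4 : P g4) :
    g1 = g2 ∨ g1 = g3 ∨ g1 = g4 ∨ g2 = g3 ∨ g2 = g4 ∨ g3 = g4 := by
  have a1 := hc g1
  have a2 := hc g2
  have a3 := hc g3
  have a4 := hc g4
  have : col g1 = col g2 ∨ col g1 = col g3 ∨ col g1 = col g4 ∨ col g2 = col g3 ∨
      col g2 = col g4 ∨ col g3 = col g4 := by omega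
  rcases this with e | e | e | e | e | e
  · exact Or.inl (h _ _ h1 h2 e)
  · exact Or.inr (Or.inl (h _ _ h1 h3 e))
  · exact Or.inr (Or.inr (Or.inl (h _ _ h1 h4 e)))
  · exact Or.inr (Or.inr (Or.inr (Or.inl (h _ _ h2 h3 e))))
  · exact Or.inr (Or.inr (Or.inr (Or.inr (Or.inl (h _ _ h2 h4 e)))))
  · exact Or.inr (Or.inr (Or.inr (Or.inr (Or.inr (h _ _ h3 h4 e)))))

lemma fourR (c : Dt M t) (g1 g2 g3 g4 : Gt M) (h1 : cSR g1 c) (h2 : cSR g2 c) (h3 : cSR g3 c)
    (h4 : cSR g4 c) : g1 = g2 ∨ g1 = g3 ∨ g1 = g4 ∨ g2 = g3 ∨ g2 = g4 ∨ g3 = g4 := by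
  refine four_of_color (fun g => cSR g c) (fun g => if g.1 then g.2.1.val % 2 else 2)
    (fun g => by split_ifs <;> omega) ?_ g1 g2 g3 g4 h1 h2 h3 h4
  intro g g' p p' e
  unfold cSR at p p'
  cases hg : g.1 <;> cases hg' : g'.1 <;> simp only [hg, hg', if_true, Bool.false_eq_true,
    if_false] at p p' e
  · exact cS_uniq p p' (hg.trans hg'.symm)
  · omega
  · omega
  · exact cP_uniq p p' (hg.trans hg'.symm) e

lemma fourC (c : Dt M t) (g1 g2 g3 g4 : Gt M) (h1 : cSC g1 c) (h2 : cSC g2 c) (h3 : cSC g3 c)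
    (h4 : cSC g4 c) : g1 = g2 ∨ g1 = g3 ∨ g1 = g4 ∨ g2 = g3 ∨ g2 = g4 ∨ g3 = g4 := by
  refine four_of_color (fun g => cSC g c) (fun g => if g.1 then 2 else g.2.1.val % 2)
    (fun g => by split_ifs <;> omega) ?_ g1 g2 g3 g4 h1 h2 h3 h4
  intro g g' p p' e
  unfold cSC at p p'
  cases hg : g.1 <;> cases hg' : g'.1 <;> simp only [hg, hg', if_true, Bool.false_eq_true,
    if_false] at p p' e
  · exact cP_uniq p p' (hg.trans hg'.symm) e
  · omega
  · omega
  · exact cS_uniq p p' (hg.trans hg'.symm)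

/-- Every copy of the pattern in the model matrix passes through the leaf diagonal. -/
theorem copy_defect (R C : Fin 6 → It M t) (hR : ∀ a a', a < a' → kr (R a) ≤ kr (R a'))
    (hC : ∀ a a', a < a' → kc (C a) ≤ kc (C a'))
    (h : ∀ a s, cM (R a) (C s) ↔ pat a s = true) :
    ∃ (v : Fin (2 ^ M)) (p q : Fin t), R 1 = .inl (⟨M + 1, by omega⟩, v, p) ∧
      C 5 = .inl (⟨M + 1, by omega⟩, v, q) := by
  have hR' : ∀ a a', a < a' → (R a).isRight → (R a').isRight := by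
    intro a a' haa ha
    have := hR a a' haa
    obtain ⟨l, hl⟩ := Sum.isRight_iff.1 ha
    rcases hr : R a' with d | l'
    · exfalso
      rw [hl, hr] at this
      simp only [kr, Prod.Lex.toLex_le_toLex] at this
      have h1 := lo_le (M + 1) d.1 d.2.1
      have h2 := d.2.1.isLt
      omega
    · rfl
  have hC' : ∀ a a', a < a' → (C a').isRight → (C a).isRight := by
    intro a a' haa ha
    have := hC a a' haa
    obtain ⟨l, hl⟩ := Sum.isRight_iff.1 ha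
    rcases hr : C a with d | l'
    · exfalso
      rw [hl, hr] at this
      simp only [kc, Prod.Lex.toLex_le_toLex] at this
      omega
    · rfl
  obtain ⟨g, ⟨hv, r0, r1, c, e0, e1, e5, s0, s1, s5⟩ | ⟨hv, r, c4, c5, e0, e4, e5, s0, s4, s5⟩⟩ :=
    core R C hR' hC' h fourR fourC
  · have x1 := (h 1 5).2 (by decide)
    have x2 : ¬ _ := fun hh => absurd ((h 0 5).1 hh) (by decide)
    have k := hR 0 1 (by decide)
    rw [e1, e5] at x1
    rw [e0, e5] at x2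
    rw [e0, e1] at k
    simp only [kr, Prod.Lex.toLex_le_toLex] at k
    simp only [cSR, cSC, hv, if_true] at s0 s1 s5
    obtain ⟨a1, a2, a3⟩ := ver_mono s5 s0 s1 k x1 x2
    obtain ⟨i1, v1, p⟩ := r1
    obtain ⟨i5, v5, q⟩ := c
    simp only at a1 a2 a3
    refine ⟨v1, p, q, ?_, ?_⟩
    · rw [e1]; congr; exact Fin.ext a1
    · rw [e5]; congr
      · exact Fin.ext a2
      · exact (Fin.ext a3).symm
  · exfalso
    have x1 := (h 0 4).2 (by decide)
    have x2 : ¬ _ := fun hh => absurd ((h 0 5).1 hh) (by decide)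
    have k := hC 4 5 (by decide)
    rw [e0, e4] at x1
    rw [e0, e5] at x2
    rw [e4, e5] at k
    simp only [kc, Prod.Lex.toLex_le_toLex] at k
    simp only [cSR, cSC, hv, Bool.false_eq_true, if_false] at s0 s4 s5
    exact x2 (hor_mono s0 s4 s5 (by omega) x1)

lemma nd_one (v : Fin (2 ^ M)) : nd (M + 1) 1 v = 0 := by
  unfold nd sz
  simp [Nat.div_eq_of_lt v.isLt]

lemma lo_zero (v : Fin (2 ^ M)) : lo (M + 1) 0 v = 0 := by
  unfold lo
  rw [nd_succ (by omega), zero_add, nd_one]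
  simp

/-- Any matrix agreeing with the model on the three clean index pairs contains the pattern. -/
theorem chain (Bm : It M t → It M t → Prop) (x y z : Wt M t)
    (ag : ∀ a b, (wOf a = x ∧ wOf b = z) ∨ (wOf a = y ∧ wOf b = x) ∨ (wOf a = y ∧ wOf b = z) →
      (Bm a b ↔ cM a b)) :
    ∃ R C : Fin 6 → It M t, (∀ a a', a < a' → kr (R a) < kr (R a')) ∧
      (∀ a a', a < a' → kc (C a) < kc (C a')) ∧ ∀ a s, Bm (R a) (C s) ↔ pat a s = true := by
  by_contra hno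
  let at_ : Wt M t → Fin (2 * (M + 1)) → Dt M t := fun u i => (i, if i.val = 0 then u else x)
  have at_w : ∀ u i, (at_ u i).2 = x ∨ (at_ u i).2 = u := by
    intro u i
    simp only [at_]
    split_ifs
    · exact Or.inr rfl
    · exact Or.inl rfl
  have at_x : ∀ u (i : Fin (2 * (M + 1))), i.val ≠ 0 → at_ u i = (i, x) := by
    intro u i hi
    simp only [at_, if_neg hi]
  have at_nd : ∀ u (i : Fin (2 * (M + 1))), nd (M + 1) (i.val + 1) (at_ u i).2.1 =
      nd (M + 1) (i.val + 1) x.1 := by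
    intro u i
    simp only [at_]
    split_ifs with h0
    · rw [h0, zero_add, nd_one, nd_one]
    · rfl
  have at_lo : ∀ u (i : Fin (2 * (M + 1))), lo (M + 1) i.val (at_ u i).2.1 ≤
      lo (M + 1) (i.val + 1) x.1 := by
    intro u i
    simp only [at_]
    split_ifs with h0
    · rw [h0, lo_zero]; exact Nat.zero_le _
    · exact lo_succ_ge _ _ _
  have hlo : ∀ (i : ℕ) (v : Fin (2 ^ M)), lo (M + 1) i v < 2 ^ M := fun i v =>
    lt_of_le_of_lt (lo_le _ _ _) v.isLt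
  have Hs : ∀ (i j j' : Fin (2 * (M + 1))), j'.val = j.val + 1 → i.val + j'.val = 2 * (M + 1) →
      Bm (.inl (i, x)) (.inl (at_ z j)) → Bm (.inl (i, x)) (.inl (j', x)) := by
    intro i j j' hj hi hb
    by_contra hb'
    apply hno
    let g : Gt M := (false, j', ⟨nd (M + 1) j' x.1 % 2, Nat.mod_lt _ (by omega)⟩)
    refine ⟨_, _, ?_, ?_, hstep (φ := cφ) (ψ := cψ) (ver := Prod.fst) (SR := cSR) (SC := cSC)
      Bm g rfl (i, x) (at_ z j) (j', x) y z ?_ ?_ ?_ ?_ ?_ ?_ ?_ hb hb'⟩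
    · have := hlo i x.1
      intro a a' haa
      fin_cases a <;> fin_cases a' <;>
        simp [kr, Prod.Lex.toLex_lt_toLex, this] at haa ⊢
    · have h1 := at_lo z j
      have h2 : (at_ z j).1 = j := rfl
      have h3 : lo (M + 1) j.val (at_ z j).2.1 < lo (M + 1) j'.val x.1 ∨
          (lo (M + 1) j.val (at_ z j).2.1 = lo (M + 1) j'.val x.1 ∧ j < j') := by
        rw [hj, Fin.lt_def]; omega
      intro a a' haa
      fin_cases a <;> fin_cases a' <;>
        simp [kc, Prod.Lex.toLex_lt_toLex, h2, h3] at haa ⊢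
    · exact ⟨hi, rfl⟩
    · refine ⟨Or.inr hj.symm, ?_⟩
      show nd (M + 1) j'.val (at_ z j).2.1 % 2 = nd (M + 1) j' x.1 % 2
      rw [hj, at_nd]
    · exact ⟨Or.inl rfl, rfl⟩
    · intro s; exact ag _ _ (Or.inl ⟨rfl, rfl⟩)
    · intro a s; exact ag _ _ (Or.inr (Or.inr ⟨rfl, rfl⟩))
    · intro a
      rcases at_w z j with e | e
      · exact ag _ _ (Or.inr (Or.inl ⟨rfl, e⟩))
      · exact ag _ _ (Or.inr (Or.inr ⟨rfl, e⟩))
    · intro a; exact ag _ _ (Or.inr (Or.inl ⟨rfl, rfl⟩))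
  have Vs : ∀ (i i' j : Fin (2 * (M + 1))), i'.val = i.val + 1 → j.val + i'.val = 2 * (M + 1) →
      Bm (.inl (i', x)) (.inl (j, x)) → Bm (.inl (at_ y i)) (.inl (j, x)) := by
    intro i i' j hi hj hb
    by_contra hb'
    apply hno
    let g : Gt M := (true, i', ⟨nd (M + 1) i' x.1 % 2, Nat.mod_lt _ (by omega)⟩)
    refine ⟨_, _, ?_, ?_, vstep (φ := cφ) (ψ := cψ) (ver := Prod.fst) (SR := cSR) (SC := cSC)
      Bm g rfl (at_ y i) (i', x) (j, x) y z ?_ ?_ ?_ ?_ ?_ ?_ ?_ hb hb'⟩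
    · have h0 := hlo i' x.1
      have h0' := hlo i (at_ y i).2.1
      have h1 := at_lo y i
      have h2 : (at_ y i).1 = i := rfl
      have h3 : lo (M + 1) i.val (at_ y i).2.1 < lo (M + 1) i'.val x.1 ∨
          (lo (M + 1) i.val (at_ y i).2.1 = lo (M + 1) i'.val x.1 ∧ i < i') := by
        rw [hi, Fin.lt_def]; omega
      intro a a' haa
      fin_cases a <;> fin_cases a' <;>
        simp [kr, Prod.Lex.toLex_lt_toLex, h0, h0', h2, h3] at haa ⊢
    · intro a a' haa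
      fin_cases a <;> fin_cases a' <;>
        simp [kc, Prod.Lex.toLex_lt_toLex] at haa ⊢
    · refine ⟨Or.inr hi.symm, ?_⟩
      show nd (M + 1) i'.val (at_ y i).2.1 % 2 = nd (M + 1) i' x.1 % 2
      rw [hi, at_nd]
    · exact ⟨Or.inl rfl, rfl⟩
    · exact ⟨hj, rfl⟩
    · intro s
      rcases at_w y i with e | e
      · exact ag _ _ (Or.inl ⟨e, rfl⟩)
      · exact ag _ _ (Or.inr (Or.inr ⟨e, rfl⟩))
    · intro s; exact ag _ _ (Or.inl ⟨rfl, rfl⟩)
    · intro a s; exact ag _ _ (Or.inr (Or.inr ⟨rfl, rfl⟩))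
    · intro a; exact ag _ _ (Or.inr (Or.inl ⟨rfl, rfl⟩))
  have P : ∀ (j : ℕ) (hj : j < 2 * (M + 1)),
      Bm (.inl (at_ y ⟨2 * (M + 1) - 1 - j, by omega⟩)) (.inl (at_ z ⟨j, hj⟩)) := by
    intro j
    induction j with
    | zero =>
      intro hj
      rw [at_x y _ (by simp only; omega)]
      refine (ag _ _ (Or.inl ⟨rfl, rfl⟩)).2 ?_
      show phi (M + 1) (2 * (M + 1) - 1 - 0) x.1 ≤ hi (M + 1) 0 z.1
      unfold phi
      rw [hi_ge (by omega), if_neg (by omega), hi_eq, lo_zero]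
      have := x.1.isLt
      unfold sz
      rw [Nat.sub_zero, pow_succ]
      omega
    | succ j ih =>
      intro hj
      have h1 := ih (by omega)
      rw [at_x y _ (by simp only; omega)] at h1
      have h2 := Hs _ _ ⟨j + 1, hj⟩ rfl (by simp only; omega) h1
      rw [at_x z _ (by simp)]
      exact Vs _ _ _ (by simp only; omega) (by simp only; omega) h2
  have h1 := P (2 * (M + 1) - 1) (by omega)
  rw [at_x z _ (by simp only; omega)] at h1
  have e : at_ y ⟨2 * (M + 1) - 1 - (2 * (M + 1) - 1), by omega⟩ = (⟨0, by omega⟩, y) := by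
    simp [at_]
  rw [e] at h1
  have h2 := (ag _ _ (Or.inr (Or.inl ⟨rfl, rfl⟩))).1 h1
  have h3 : phi (M + 1) 0 y.1 ≤ hi (M + 1) (2 * (M + 1) - 1) x.1 := h2
  unfold phi at h3
  rw [hi_ge (i := 2 * (M + 1) - 1) (by omega), if_pos (by omega), hi_eq, lo_zero] at h3
  have := x.1.isLt
  unfold sz at h3
  rw [Nat.sub_zero, pow_succ] at h3
  omega

end concrete

end Vale.Agent.P037
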