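import Mathlib

namespace Vale.Agent.P037

/-- `N_H(A)`: the number of ordered copies of the binary `k × k` matrix `H` in the binary
`n × n` matrix `A`, i.e. of pairs of strictly increasing index choices `r`, `c` with
`A (r i) (c j) = H i j` for all `i, j`. -/
noncomputable def numCopies {k n : ℕ} (H : Matrix (Fin k) (Fin k) Bool)
    (A : Matrix (Fin n) (Fin n) Bool) : ℕ :=
  Set.ncard {p : (Fin k → Fin n) × (Fin k → Fin n) |
    StrictMono p.1 ∧ StrictMono p.2 ∧ ∀ i j, A (p.1 i) (p.2 j) = H i j}

/-- The number of entries in which two binary `n × n` matrices differ. -/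
noncomputable def numDiff {n : ℕ} (A B : Matrix (Fin n) (Fin n) Bool) : ℕ :=
  Set.ncard {p : Fin n × Fin n | A p.1 p.2 ≠ B p.1 p.2}

/-- `dist_H(A)`: the least number of entries of `A` one has to change to reach an `H`-free
matrix, divided by `n ^ 2`. -/
noncomputable def distFree {k n : ℕ} (H : Matrix (Fin k) (Fin k) Bool)
    (A : Matrix (Fin n) (Fin n) Bool) : ℝ :=
  ((sInf {d : ℕ | ∃ B : Matrix (Fin n) (Fin n) Bool, numCopies H B = 0 ∧ d = numDiff A B} : ℕ) : ℝ)
    / (n : ℝ) ^ 2

end Vale.Agent.P037
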