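import Mathlib
import Vale.Agent.P037.Defs
import Vale.Agent.P037.Build

namespace Vale.Agent.P037

lemma exists_emb {I β : Type} [Fintype I] [LinearOrder β] (κ : I → β) (n : ℕ)
    (h : Fintype.card I ≤ n) :
    ∃ e : I → Fin n, Function.Injective e ∧ ∀ a b, κ a < κ b → e a < e b := by
  classical
  let f := Fintype.equivFin I
  let g : I → β ×ₗ Fin (Fintype.card I) := fun a => toLex (κ a, f a)
  have hg : Function.Injective g := by
    intro a b hab
    have : f a = f b := congrArg (fun p => (ofLex p).2) hab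
    exact f.injective this
  let _ : LinearOrder I := LinearOrder.lift' g hg
  let o := monoEquivOfFin I rfl
  refine ⟨fun a => Fin.castLE h (o.symm a), ?_, ?_⟩
  · exact (Fin.castLE_injective h).comp o.symm.injective
  · intro a b hab
    have : a < b := by
      show g a < g b
      simp only [g, Prod.Lex.toLex_lt_toLex]
      exact Or.inl hab
    exact o.symm.strictMono this

lemma clean_triple {W : Type} [Fintype W] (S : Finset (W × W))
    (h : 3 * S.card < Fintype.card W ^ 2) :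
    ∃ x y z : W, (x, z) ∉ S ∧ (y, x) ∉ S ∧ (y, z) ∉ S := by
  classical
  by_contra hno
  push Not at hno
  have hsub : (Finset.univ : Finset (W × W × W)) ⊆
      ((S ×ˢ Finset.univ).image (fun p : (W × W) × W => (p.1.1, p.2, p.1.2)) ∪
        (S ×ˢ Finset.univ).image (fun p : (W × W) × W => (p.1.2, p.1.1, p.2))) ∪
        (S ×ˢ Finset.univ).image (fun p : (W × W) × W => (p.2, p.1.1, p.1.2)) := by
    rintro ⟨x, y, z⟩ -
    simp only [Finset.mem_union, Finset.mem_image, Finset.mem_product, Finset.mem_univ, and_true]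
    by_cases h1 : (x, z) ∈ S
    · exact Or.inl (Or.inl ⟨((x, z), y), h1, rfl⟩)
    by_cases h2 : (y, x) ∈ S
    · exact Or.inl (Or.inr ⟨((y, x), z), h2, rfl⟩)
    exact Or.inr ⟨((y, z), x), hno x y z h1 h2, rfl⟩
  have h1 := Finset.card_le_card hsub
  have hc : (S ×ˢ (Finset.univ : Finset W)).card = S.card * Fintype.card W := by simp
  have h2 : ∀ f : (W × W) × W → W × W × W,
      ((S ×ˢ Finset.univ).image f).card ≤ S.card * Fintype.card W := fun f =>
    hc ▸ Finset.card_image_le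
  have h3 := (Finset.card_union_le _ _).trans (Nat.add_le_add
    ((Finset.card_union_le _ _).trans (Nat.add_le_add
      (h2 (fun p => (p.1.1, p.2, p.1.2))) (h2 (fun p => (p.1.2, p.1.1, p.2)))))
    (h2 (fun p => (p.2, p.1.1, p.1.2))))
  have h4 := h1.trans h3
  simp only [Finset.card_univ, Fintype.card_prod] at h4
  have hpos : 0 < Fintype.card W := by
    rcases Nat.eq_zero_or_pos (Fintype.card W) with h0 | h0
    · rw [h0] at h; simp at h
    · exact h0
  nlinarith

theorem construct (M t n : ℕ) (hn : 50 * (M + 1) * (2 ^ M * t) ≤ n) :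
    ∃ A : Matrix (Fin n) (Fin n) Bool, numCopies pat A ≤ 2 ^ M * t * t * n ^ 10 ∧
      ∀ B : Matrix (Fin n) (Fin n) Bool, numCopies pat B = 0 →
        (2 ^ M * t) ^ 2 ≤ 3 * numDiff A B := by
  classical
  obtain ⟨er, er_inj, er_lt⟩ := exists_emb (kr (M := M) (t := t)) n (card_It ▸ hn)
  obtain ⟨ec, ec_inj, ec_lt⟩ := exists_emb (kc (M := M) (t := t)) n (card_It ▸ hn)
  let A : Matrix (Fin n) (Fin n) Bool :=
    fun p q => decide (∃ a b, er a = p ∧ ec b = q ∧ cM a b)
  have hA : ∀ a b, A (er a) (ec b) = true ↔ cM a b := by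
    intro a b
    simp only [A, decide_eq_true_eq]
    constructor
    · rintro ⟨a', b', h1, h2, h3⟩
      rwa [er_inj h1, ec_inj h2] at h3
    · intro h
      exact ⟨a, b, rfl, rfl, h⟩
  refine ⟨A, ?_, ?_⟩
  · let F : (Fin (2 ^ M) × Fin t × Fin t) × (Fin 5 → Fin n) × (Fin 5 → Fin n) →
        (Fin 6 → Fin n) × (Fin 6 → Fin n) := fun u =>
      (Fin.insertNth 1 (er (.inl (⟨M + 1, by omega⟩, u.1.1, u.1.2.1))) u.2.1,
        Fin.insertNth 5 (ec (.inl (⟨M + 1, by omega⟩, u.1.1, u.1.2.2))) u.2.2)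
    have hsub : {p : (Fin 6 → Fin n) × (Fin 6 → Fin n) |
        StrictMono p.1 ∧ StrictMono p.2 ∧ ∀ i j, A (p.1 i) (p.2 j) = pat i j} ⊆
        F '' Set.univ := by
      rintro ⟨r, c⟩ ⟨hr, hc, h⟩
      simp only at hr hc h
      have h1 : ∀ i, ∃ a, er a = r i := by
        intro i
        have := h i 0
        rw [pat_col0] at this
        simp only [A, decide_eq_true_eq] at this
        obtain ⟨a, b, h1, -, -⟩ := this
        exact ⟨a, h1⟩
      have h2 : ∀ j, ∃ b, ec b = c j := by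
        intro j
        have := h 5 j
        rw [pat_row5] at this
        simp only [A, decide_eq_true_eq] at this
        obtain ⟨a, b, -, h1, -⟩ := this
        exact ⟨b, h1⟩
      choose R hR using h1
      choose C hC using h2
      obtain ⟨v, p, q, e1, e5⟩ := copy_defect R C
        (fun a a' haa => by
          by_contra hh
          have := er_lt _ _ (not_le.1 hh)
          rw [hR, hR] at this
          exact absurd (hr haa) (not_lt.2 this.le))
        (fun a a' haa => by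
          by_contra hh
          have := ec_lt _ _ (not_le.1 hh)
          rw [hC, hC] at this
          exact absurd (hc haa) (not_lt.2 this.le))
        (fun a s => by rw [← hA, hR, hC, h])
      refine ⟨((v, p, q), Fin.removeNth 1 r, Fin.removeNth 5 c), trivial, ?_⟩
      simp only [F]
      rw [← e1, ← e5, hR, hC, Fin.insertNth_self_removeNth, Fin.insertNth_self_removeNth]
    have := (Set.ncard_le_ncard hsub (Set.toFinite _)).trans (Set.ncard_image_le (Set.toFinite _))
    refine this.trans (le_of_eq ?_)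
    rw [Set.ncard_univ, Nat.card_eq_fintype_card]
    simp only [Fintype.card_prod, Fintype.card_fin, Fintype.card_fun]
    ring
  · intro B hB
    by_contra hlt
    push Not at hlt
    let S : Finset (Wt M t × Wt M t) := Finset.univ.filter fun p =>
      ∃ a b, wOf a = p.1 ∧ wOf b = p.2 ∧ A (er a) (ec b) ≠ B (er a) (ec b)
    have hS : S.card ≤ numDiff A B := by
      unfold numDiff
      rw [← Set.ncard_coe_finset]
      have hsub : (S : Set (Wt M t × Wt M t)) ⊆ (fun p : It M t × It M t => (wOf p.1, wOf p.2)) ''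
          {p | A (er p.1) (ec p.2) ≠ B (er p.1) (ec p.2)} := by
        intro p hp
        simp only [S, Finset.coe_filter, Finset.mem_univ, true_and, Set.mem_ofPred_eq] at hp
        obtain ⟨a, b, h1, h2, h3⟩ := hp
        exact ⟨(a, b), h3, Prod.ext h1 h2⟩
      refine (Set.ncard_le_ncard hsub (Set.toFinite _)).trans
        ((Set.ncard_image_le (Set.toFinite _)).trans ?_)
      refine Set.ncard_le_ncard_of_injOn (fun p => (er p.1, ec p.2)) (fun p hp => hp) ?_
        (Set.toFinite _)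
      intro p _ p' _ e
      exact Prod.ext (er_inj (congrArg Prod.fst e)) (ec_inj (congrArg Prod.snd e))
    obtain ⟨x, y, z, h1, h2, h3⟩ := clean_triple S (by
      simp only [Fintype.card_prod, Fintype.card_fin]
      omega)
    have hag : ∀ a b, (wOf a, wOf b) ∉ S → (B (er a) (ec b) = true ↔ cM a b) := by
      intro a b hab
      rw [← hA]
      have : A (er a) (ec b) = B (er a) (ec b) := by
        by_contra hh
        exact hab (by
          simp only [S, Finset.mem_filter, Finset.mem_univ, true_and]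
          exact ⟨a, b, rfl, rfl, hh⟩)
      rw [this]
    obtain ⟨R, C, hR, hC, h⟩ := chain (fun a b => B (er a) (ec b) = true) x y z (by
      rintro a b (⟨e1, e2⟩ | ⟨e1, e2⟩ | ⟨e1, e2⟩) <;> apply hag <;> rw [e1, e2] <;> assumption)
    unfold numCopies at hB
    rw [Set.ncard_eq_zero (Set.toFinite _)] at hB
    have hmem : ((fun a => er (R a)), (fun a => ec (C a))) ∈
        {p : (Fin 6 → Fin n) × (Fin 6 → Fin n) |
          StrictMono p.1 ∧ StrictMono p.2 ∧ ∀ i j, B (p.1 i) (p.2 j) = pat i j} :=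
      ⟨fun a a' haa => er_lt _ _ (hR a a' haa), fun a a' haa => ec_lt _ _ (hC a a' haa),
        fun i j => Bool.eq_iff_iff.2 (h i j)⟩
    rw [hB] at hmem
    exact hmem

lemma numCopies_false (n : ℕ) :
    numCopies pat (fun _ _ => false : Matrix (Fin n) (Fin n) Bool) = 0 := by
  unfold numCopies
  rw [Set.ncard_eq_zero (Set.toFinite _)]
  ext p
  simp only [Set.mem_ofPred_eq, Set.mem_empty_iff_false, iff_false]
  rintro ⟨-, -, h⟩
  exact absurd (h 0 0) (by decide)

theorem construct_real (M n : ℕ) (hn : 50 * (M + 1) * 2 ^ M ≤ n) :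
    ∃ A : Matrix (Fin n) (Fin n) Bool,
      1 / (30000 * ((M : ℝ) + 1) ^ 2) ≤ distFree pat A ∧
      (numCopies pat A : ℝ) ≤ 1 / 2 ^ (M + 2) * (n : ℝ) ^ 12 := by
  set K := 50 * (M + 1) * 2 ^ M with hK
  have hKpos : 0 < K := by positivity
  set t := n / K with ht
  have ht1 : 1 ≤ t := (Nat.one_le_div_iff hKpos).2 hn
  have h1 : K * t ≤ n := Nat.mul_div_le n K
  have h2 : n < K * (t + 1) := Nat.lt_mul_div_succ n hKpos
  have h3 : n ≤ 2 * (K * t) := by nlinarith
  obtain ⟨A, hA1, hA2⟩ := construct M t n (by rw [← mul_assoc]; exact h1)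
  have hnpos : (0 : ℝ) < n := by
    have : 0 < n := lt_of_lt_of_le hKpos hn
    exact_mod_cast this
  refine ⟨A, ?_, ?_⟩
  · unfold distFree
    have hne : {d : ℕ | ∃ B : Matrix (Fin n) (Fin n) Bool,
        numCopies pat B = 0 ∧ d = numDiff A B}.Nonempty :=
      ⟨_, _, numCopies_false n, rfl⟩
    obtain ⟨B, hB, hd⟩ := Nat.sInf_mem hne
    rw [hd]
    have h4 : ((2 : ℝ) ^ M * t) ^ 2 ≤ 3 * numDiff A B := by exact_mod_cast hA2 B hB
    have h5 : (n : ℝ) ≤ 100 * ((M : ℝ) + 1) * (2 ^ M * t) := by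
      have : (n : ℝ) ≤ 2 * ((50 * (M + 1) * 2 ^ M : ℕ) * t) := by exact_mod_cast h3
      push_cast at this
      linarith
    have h6 : (n : ℝ) ^ 2 ≤ (100 * ((M : ℝ) + 1) * (2 ^ M * t)) ^ 2 :=
      pow_le_pow_left₀ hnpos.le h5 2
    rw [div_le_div_iff₀ (by positivity) (by positivity)]
    have h7 : (0 : ℝ) ≤ ((M : ℝ) + 1) ^ 2 := by positivity
    nlinarith
  · have h4 : (numCopies pat A : ℝ) ≤ 2 ^ M * t * t * (n : ℝ) ^ 10 := by exact_mod_cast hA1
    have h5 : 50 * ((M : ℝ) + 1) * 2 ^ M * t ≤ n := by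
      have : ((50 * (M + 1) * 2 ^ M : ℕ) * t : ℝ) ≤ n := by exact_mod_cast h1
      push_cast at this
      exact this
    have h6 : 2 * 2 ^ M * (t : ℝ) ≤ n := by
      have : (0 : ℝ) ≤ 2 ^ M * t := by positivity
      have hM : (0 : ℝ) ≤ M := by positivity
      nlinarith
    have h7 : (2 * 2 ^ M * (t : ℝ)) ^ 2 ≤ (n : ℝ) ^ 2 := pow_le_pow_left₀ (by positivity) h6 2
    refine h4.trans ?_
    rw [div_mul_eq_mul_div, le_div_iff₀ (by positivity)]
    have h8 : (0 : ℝ) ≤ (n : ℝ) ^ 10 := by positivity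
    calc 2 ^ M * t * t * (n : ℝ) ^ 10 * 2 ^ (M + 2)
        = (2 * 2 ^ M * (t : ℝ)) ^ 2 * (n : ℝ) ^ 10 := by ring
      _ ≤ (n : ℝ) ^ 2 * (n : ℝ) ^ 10 := mul_le_mul_of_nonneg_right h7 h8
      _ = 1 * (n : ℝ) ^ 12 := by ring

theorem quant (ε : ℝ) (h0 : 0 < ε) (h1 : ε ≤ 1 / 30000) :
    ∃ n₀ : ℕ, ∀ n : ℕ, n₀ ≤ n → ∃ A : Matrix (Fin n) (Fin n) Bool,
      ε ≤ distFree pat A ∧
      (numCopies pat A : ℝ) ≤ Real.exp (-(1 / 300) / Real.sqrt ε) * (n : ℝ) ^ (2 * 6) := by
  set s := Real.sqrt ε with hs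
  have hspos : 0 < s := Real.sqrt_pos.2 h0
  have hss : s ^ 2 = ε := Real.sq_sqrt h0.le
  set u := 1 / Real.sqrt (30000 * ε) with hu
  have hrpos : 0 < Real.sqrt (30000 * ε) := Real.sqrt_pos.2 (by positivity)
  have hrr : Real.sqrt (30000 * ε) ^ 2 = 30000 * ε := Real.sq_sqrt (by positivity)
  have hu1 : 1 ≤ u := by
    rw [hu, le_div_iff₀ hrpos, one_mul]
    exact Real.sqrt_le_one.2 (by linarith)
  have hupos : 0 < u := by linarith
  have hfl : 1 ≤ ⌊u⌋₊ := Nat.le_floor (by exact_mod_cast hu1)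
  obtain ⟨M, hM⟩ : ∃ M, ⌊u⌋₊ = M + 1 := ⟨⌊u⌋₊ - 1, by omega⟩
  have hM1 : (M : ℝ) + 1 ≤ u := by
    have := Nat.floor_le hupos.le
    rw [hM] at this
    exact_mod_cast this
  have hM2 : u < (M : ℝ) + 2 := by
    have := Nat.lt_floor_add_one u
    rw [hM] at this
    push_cast at this
    linarith
  refine ⟨50 * (M + 1) * 2 ^ M, fun n hn => ?_⟩
  obtain ⟨A, hA1, hA2⟩ := construct_real M n hn
  refine ⟨A, le_trans ?_ hA1, hA2.trans ?_⟩
  · rw [le_div_iff₀ (by positivity)]
    have a1 : ((M : ℝ) + 1) ^ 2 ≤ u ^ 2 := pow_le_pow_left₀ (by positivity) hM1 2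
    have a2 : u ^ 2 * (30000 * ε) = 1 := by
      rw [hu, div_pow, hrr]; field_simp
    nlinarith
  · refine mul_le_mul_of_nonneg_right ?_ (by positivity)
    have a1 : Real.sqrt (30000 * ε) ≤ 180 * s := by
      apply Real.sqrt_le_iff.2
      refine ⟨by positivity, ?_⟩
      nlinarith
    have a2 : 1 / (180 * s) ≤ u := by
      rw [hu]; exact one_div_le_one_div_of_le hrpos a1
    have a3 : (0.6931471803 : ℝ) < Real.log 2 := Real.log_two_gt_d9
    have a4 : (1 : ℝ) / 2 ^ (M + 2) = Real.exp (-(((M + 2 : ℕ) : ℝ) * Real.log 2)) := by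
      rw [Real.exp_neg, Real.exp_nat_mul, Real.exp_log (by norm_num), one_div]
    rw [a4]
    apply Real.exp_le_exp.2
    have a5 : -(1 / 300) / s = -(0.6 * (1 / (180 * s))) := by field_simp; norm_num
    rw [a5]
    push_cast
    have a6 : 0 < 1 / (180 * s) := by positivity
    nlinarith

theorem not_poly : ¬ ∃ c C : ℝ, 0 < c ∧ 0 < C ∧ ∀ n : ℕ, 1 ≤ n → ∀ ε : ℝ, 0 < ε → ε < 1 →
    ∀ A : Matrix (Fin n) (Fin n) Bool, ε ≤ distFree pat A →
      c * ε ^ C * (n : ℝ) ^ (2 * 6) ≤ numCopies pat A := by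
  rintro ⟨c, C, hc, hC, h⟩
  have ht := tendsto_rpow_mul_exp_neg_mul_atTop_nhds_zero (2 * C) (1 / 300) (by norm_num)
  have h1 : ∀ᶠ x : ℝ in Filter.atTop, x ^ (2 * C) * Real.exp (-(1 / 300) * x) < c :=
    ht.eventually (gt_mem_nhds hc)
  obtain ⟨x, hx1, hx2⟩ := (h1.and (Filter.eventually_ge_atTop 200)).exists
  have hxpos : 0 < x := by linarith
  have hε0 : 0 < 1 / x ^ 2 := by positivity
  have hε1 : 1 / x ^ 2 ≤ 1 / 30000 := one_div_le_one_div_of_le (by norm_num) (by nlinarith)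
  obtain ⟨n₀, hn₀⟩ := quant (1 / x ^ 2) hε0 hε1
  obtain ⟨A, hA1, hA2⟩ := hn₀ (n₀ + 1) (by omega)
  have h2 := h (n₀ + 1) (by omega) _ hε0 (by linarith) A hA1
  have h3 := h2.trans hA2
  have hn : (0 : ℝ) < ((n₀ + 1 : ℕ) : ℝ) ^ (2 * 6) := by positivity
  have h4 := le_of_mul_le_mul_right h3 hn
  have e1 : Real.sqrt (1 / x ^ 2) = 1 / x := by
    rw [show 1 / x ^ 2 = (1 / x) ^ 2 by ring, Real.sqrt_sq (by positivity)]
  have e2 : -(1 / 300) / (1 / x) = -(1 / 300) * x := by field_simp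
  rw [e1, e2] at h4
  have e3 : x ^ (2 * C) * (1 / x ^ 2) ^ C = 1 := by
    rw [Real.rpow_mul hxpos.le, ← Real.mul_rpow (by positivity) (by positivity)]
    have : x ^ (2 : ℝ) * (1 / x ^ 2) = 1 := by
      rw [Real.rpow_two]; field_simp
    rw [this, Real.one_rpow]
  have h5 : 0 < x ^ (2 * C) := Real.rpow_pos_of_pos hxpos _
  have h6 := mul_le_mul_of_nonneg_left h4 h5.le
  have e4 : x ^ (2 * C) * (c * (1 / x ^ 2) ^ C) = c := by
    rw [mul_left_comm, e3, mul_one]
  linarith

end Vale.Agent.P037
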